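import Mathlib
import Vale.Agent.Lib.P102.Defs

namespace Vale.Agent.Results.P102.OneSided

open MeasureTheory Vale.Agent.Lib.P102

variable {Ω : Type*} [MeasurableSpace Ω]

/-- the atom pattern: `A i` on `S`, its complement off `S` -/
private def pat {k : ℕ} (A : Fin k → Set Ω) (S : Finset (Fin k)) (i : Fin k) : Set Ω :=
  if i ∈ S then A i else (A i)ᶜ

private theorem sum_corr_pat (μ : Measure Ω) [IsProbabilityMeasure μ] (T : Ω ≃ᵐ Ω) {k : ℕ}
    (A : Fin k → Set Ω) (hA : ∀ i, MeasurableSet (A i)) (t : Fin k → ℤ) :
    ∑ S : Finset (Fin k), corr μ T (pat A S) t = 1 := by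
  classical
  have hmeas : ∀ S : Finset (Fin k), MeasurableSet
      (⋂ i, (fun x => (T.toEquiv ^ t i) x) ⁻¹' pat A S i) := by
    intro S
    refine MeasurableSet.iInter fun i => ?_
    refine measurable_zpow T (t i) ?_
    unfold pat
    split_ifs
    · exact hA i
    · exact (hA i).compl
  have hdisj : Set.PairwiseDisjoint (↑(Finset.univ : Finset (Finset (Fin k))))
      (fun S => ⋂ i, (fun x => (T.toEquiv ^ t i) x) ⁻¹' pat A S i) := by
    intro S _ S' _ hne
    rw [Function.onFun, Set.disjoint_left]
    intro x hx hx'
    apply hne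
    ext i
    have h1 := Set.mem_iInter.1 hx i
    have h2 := Set.mem_iInter.1 hx' i
    simp only [Set.mem_preimage, pat] at h1 h2
    constructor
    · intro hi
      by_contra hi'
      rw [if_pos hi] at h1
      rw [if_neg hi'] at h2
      exact h2 h1
    · intro hi'
      by_contra hi
      rw [if_neg hi] at h1
      rw [if_pos hi'] at h2
      exact h1 h2
  have hcover : (⋃ S ∈ (Finset.univ : Finset (Finset (Fin k))),
      ⋂ i, (fun x => (T.toEquiv ^ t i) x) ⁻¹' pat A S i) = Set.univ := by
    apply Set.eq_univ_of_forall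
    intro x
    simp only [Finset.mem_univ, Set.iUnion_true, Set.mem_iUnion, Set.mem_iInter,
      Set.mem_preimage]
    refine ⟨Finset.univ.filter (fun i => (T.toEquiv ^ t i) x ∈ A i), fun i => ?_⟩
    unfold pat
    by_cases h : (T.toEquiv ^ t i) x ∈ A i
    · simp [h]
    · simp [h]
  have := measureReal_biUnion_finset (μ := μ) hdisj (fun S _ => hmeas S)
  rw [hcover] at this
  simp only [corr]
  rw [← this]
  simp

private theorem sum_prod_pat (μ : Measure Ω) [IsProbabilityMeasure μ] {k : ℕ}
    (A : Fin k → Set Ω) (hA : ∀ i, MeasurableSet (A i)) :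
    ∑ S : Finset (Fin k), ∏ i, μ.real (pat A S i) = 1 := by
  classical
  have h1 : ∀ S : Finset (Fin k), ∏ i, μ.real (pat A S i)
      = (∏ i ∈ S, μ.real (A i)) * ∏ i ∈ Sᶜ, μ.real (A i)ᶜ := by
    intro S
    have : ∀ i, μ.real (pat A S i) = if i ∈ S then μ.real (A i) else μ.real (A i)ᶜ := by
      intro i
      unfold pat
      split_ifs <;> rfl
    simp only [this]
    rw [Finset.prod_ite]
    congr 1
    · congr 1
      ext i; simp
    · congr 1
      ext i; simp
  simp only [h1]
  rw [← Fintype.prod_add]
  apply Finset.prod_eq_one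
  intro i _
  rw [measureReal_compl (hA i)]
  simp

/-- **One-sided criterion for multiple mixing.** For an invertible bimeasurable map `T` of a
probability space and every `k`, `T` is mixing of order `k` if and only if the `k`-fold
correlations are asymptotically bounded above by the product of the measures. -/
theorem result (μ : Measure Ω) [IsProbabilityMeasure μ] (T : Ω ≃ᵐ Ω) (k : ℕ) :
    IsMixingOfOrder μ T k ↔ IsUpperMixingOfOrder μ T k := by
  classical
  constructor
  · intro h A hA ε hε
    obtain ⟨L, hL⟩ := h A hA ε hε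
    refine ⟨L, fun t ht => ?_⟩
    have := abs_le.1 (hL t ht)
    linarith [this.2]
  · intro h A hA ε hε
    have hε' : 0 < ε / 2 ^ k := by positivity
    have hpatmeas : ∀ S : Finset (Fin k), ∀ i, MeasurableSet (pat A S i) := by
      intro S i
      unfold pat
      split_ifs
      · exact hA i
      · exact (hA i).compl
    choose Ls hLs using fun S : Finset (Fin k) => h (pat A S) (hpatmeas S) (ε / 2 ^ k) hε'
    obtain ⟨L, hL⟩ := Finset.exists_le (Finset.univ.image Ls)
    refine ⟨L, fun t ht => ?_⟩
    have hbound : ∀ S : Finset (Fin k),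
        corr μ T (pat A S) t ≤ ∏ i, μ.real (pat A S i) + ε / 2 ^ k := by
      intro S
      apply hLs S t
      intro i j hij
      have : Ls S ≤ L := hL _ (Finset.mem_image_of_mem _ (Finset.mem_univ S))
      linarith [ht i j hij]
    have hAll : pat A Finset.univ = A := by
      funext i
      simp [pat]
    have hsum1 := sum_corr_pat μ T A hA t
    have hsum2 := sum_prod_pat μ A hA
    have hsplit1 := Finset.add_sum_erase Finset.univ (fun S => corr μ T (pat A S) t)
      (Finset.mem_univ (Finset.univ : Finset (Fin k)))
    have hsplit2 := Finset.add_sum_erase Finset.univ (fun S => ∏ i, μ.real (pat A S i))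
      (Finset.mem_univ (Finset.univ : Finset (Fin k)))
    simp only [hAll] at hsplit1 hsplit2
    have hrest : ∑ S ∈ (Finset.univ : Finset (Finset (Fin k))).erase Finset.univ,
        corr μ T (pat A S) t
        ≤ ∑ S ∈ (Finset.univ : Finset (Finset (Fin k))).erase Finset.univ,
          (∏ i, μ.real (pat A S i) + ε / 2 ^ k) :=
      Finset.sum_le_sum fun S _ => hbound S
    rw [Finset.sum_add_distrib, Finset.sum_const, nsmul_eq_mul] at hrest
    have hcard : (((Finset.univ : Finset (Finset (Fin k))).erase Finset.univ).card : ℝ)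
        ≤ 2 ^ k := by
      have h1 : ((Finset.univ : Finset (Finset (Fin k))).erase Finset.univ).card
          ≤ (Finset.univ : Finset (Finset (Fin k))).card := Finset.card_erase_le
      have h2 : (Finset.univ : Finset (Finset (Fin k))).card = 2 ^ k := by
        simp
      have h3 : (((Finset.univ : Finset (Finset (Fin k))).erase Finset.univ).card : ℝ)
          ≤ ((2 ^ k : ℕ) : ℝ) := by
        exact_mod_cast h2 ▸ h1
      simpa using h3
    have hmul : (((Finset.univ : Finset (Finset (Fin k))).erase Finset.univ).card : ℝ)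
        * (ε / 2 ^ k) ≤ ε := by
      have : (2 : ℝ) ^ k * (ε / 2 ^ k) = ε := by field_simp
      calc _ ≤ (2 : ℝ) ^ k * (ε / 2 ^ k) := mul_le_mul_of_nonneg_right hcard hε'.le
        _ = ε := this
    have hup := hbound Finset.univ
    rw [hAll] at hup
    have hεk : ε / 2 ^ k ≤ ε := by
      apply div_le_self hε.le
      exact one_le_pow₀ (by norm_num)
    rw [abs_le]
    constructor <;> linarith

end Vale.Agent.Results.P102.OneSided
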