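import Mathlib
import Vale.Agent.Lib.P102.Defs
import Vale.Agent.Lib.P102.Sparse

namespace Vale.Agent.Results.P102.SparseExceptions

open MeasureTheory Vale.Agent.Lib.P102

variable {Ω : Type*} [MeasurableSpace Ω]

/-- A mixing invertible measure-preserving transformation is mixing of every order `k` along
all integer time vectors outside a sparse exceptional family: there are a bound `K` and finite
sets `Exc i t` of integers, each with at most `K` elements, the set `Exc i t` depending only on
the earlier times `t j`, `j < i`, and empty for the first index, such that the `k`-fold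
correlation is within `ε` of the product of the measures for every time vector `t` with
`t i ∉ Exc i t` for all `i`. No ordering or gap condition is imposed on `t`. -/
theorem result (μ : Measure Ω) [IsProbabilityMeasure μ] (T : Ω ≃ᵐ Ω)
    (hT : MeasurePreserving T μ μ) (hmix : IsMixingOfOrder μ T 2) (k : ℕ) (A : Fin k → Set Ω)
    (hA : ∀ i, MeasurableSet (A i)) (ε : ℝ) (hε : 0 < ε) :
    ∃ (K : ℕ) (Exc : Fin k → (Fin k → ℤ) → Finset ℤ),
      (∀ i t, (Exc i t).card ≤ K) ∧
      (∀ i t t', (∀ j, j < i → t j = t' j) → Exc i t = Exc i t') ∧
      (∀ i t, i.val = 0 → Exc i t = ∅) ∧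
      ∀ t : Fin k → ℤ, (∀ i, t i ∉ Exc i t) →
        |corr μ T A t - ∏ i, μ.real (A i)| ≤ ε :=
  sparse_exceptions μ T hT hmix k A hA ε hε

end Vale.Agent.Results.P102.SparseExceptions
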